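import Vale.Agent.P258.R2.H863.Spec

/-!
A model of `GL(2,3)` on the numbers `0, ..., 47` (`0` is the identity, `1` is `-1`), with the
determinant, the action on the eight nonzero vectors and the action on the four lines, all read
off from tables.
-/

namespace Vale.Agent.P258.R2.H467

open Vale.Agent.P258.R2.H863

def tabMul : ℕ := 67151035701246579760645035370899877219511653739263907379177519886373760032104499173388016819922789372006377527451813123120900957109713276707000634188017636745333083402744593478670962486166551842825549041961839699210979204391921789644116106027877183465048274954727088772441917546242358977925695446910785642224829960844073552578744396797491818580432379347949457507677649443097780261029643117567562811185637660795844751168105322674696074372137698611864787859045423545118248114433980651980288295651582869575959250780737431544945375618829223631996385843524249382749078944526547037870021173467838983900356141839134798656261265889370136697562767860564648940242544789754232552249388534951040132905380982715971502841438686848933802082892752353186262753667932776631939077830808114252924898007065241817612444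1742033316142729907323568867472624593684026351902236584399191757776584431033029034349636891504529471982290386106395506149876891032430172665200339397688981557093978069769772534312322130198355112776623204248116006417670302389817880443365904414711249113456947460797442186428922214021206743666418515889641873336076970285615299739540112482092276722727715875640684876014541427786438392268456822700596750140264066635648103297350957804344910365636140521124618331763924914046632482553514412103173020942563923137171400171203888736611383789281747855757043623116322260743032177131988633276773626655621163898836386913143152511434895660757834206445618319049342262243087938594682964158658127870168789411394971027322246340673935211213431155756541759571639701177118251047790163564792636974045429797683331349557369901423641310361339402142612257088898386915166311764574448882485183215632810465006569412894354806468168477303951264440178680434079862919888340833721787123926825387482365246074328339286693402673442374415550949967468036887262832610845368724885102336131349530957845647230825863222595495388241102496106044405071617154058123993777681564912568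1734239628080114802157310488023874550418906533342975947748314699337275938249755723205728695568070125547655167732881475772977261881341465608728440203215671384090152320579691341076213084029835565321040636377309599826024405414476365718333961461458746576354661218151371050955252011001651356075859156289219205545981489088327478171294309154291766958590489372210160831124282420967191816884701527987993102596705345854818091180796918808332412668924750404959546998241505906387130507576179560842891801238607820270395710743517873391614875778735435518959320519938571184009141145664248438391537334020129555020915969504584722357944454815897389049582899924027815486521473554319491554537707094224151619880826284423739704535845777246985975506875400265002119351619269061825973305492755628678578521181978882500355669782604839941720594529846049761335090445592861942732135725961486003965749853951190817118936364092270714231345242276545780322869671559772104559893303171322369683112826099200844237658790868708036819245818913583126405880564856175316417751735669255851231136746224905528034458267964264343653623100453638957497865400036691703585772032737373259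7639833885805217528706739204325410537709165833638611797401090356417722241967274520233905232427895001246946173140698073975295211693697779371127765976302438051177826616378015512339055965896850967861130777364464787013035976063737236983798697817019244349311837748932889880986570516259622437897154280625779237537284979960755876385205737319894995551607513749612431060199186666028523421496352446696301135523367506484184438562486432517263469516718966822205457832030597013151456770711723366486875581519435666521121000977652236275041692095543088261107746568899501013528725192296504533249390042507708984072666500169564875467200989419838580969101877039962903541039158646631857546950954476317653129878289458840873998315999725610201715007414493597643023295891640351088584218321846832371502995558498300640560129461828877571905198767576411680255090952445038635881989591472231965340728526121929459678862591963268865360284958698172770802682085679997763076041059652862019730988631163425467008698832199894206154645564717761033906467272993504059515485959946782920122689710107267186899734490368971403872069548336546062400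

def tabInv : ℕ := 172465208980894982324211629307408563956574327091097766702372066929936447570695201235008

def tabAct : ℕ := 39552462357750152549635813595982211294719350068590778012908373772466346777653156816521187652713931417852787881570701404115173092725315904146638783255991720540727979049373346641914184429709929484089088416599035968277627512563816577643408550762927690655888148161146868330962093648393833125644667929935019078652910467337796773974945217018343332693640

def tabPr : ℕ := 12074015682934219438633295579791264275556398315549424807267633490480495233546197564844896763163986972219585675257060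

def tabDet : ℕ := 112518298433564

def tabCls : ℕ := 37383934316552

def mulN (a b : ℕ) : ℕ := (tabMul >>> (6 * (48 * a + b))) % 64

def invN (a : ℕ) : ℕ := (tabInv >>> (6 * a)) % 64

def actN (a i : ℕ) : ℕ := (tabAct >>> (3 * (8 * a + i))) % 8

def prN (a i : ℕ) : ℕ := (tabPr >>> (2 * (4 * a + i))) % 4

def detN (a : ℕ) : ℕ := (tabDet >>> a) % 2

/-- indicator of a class of elements of order eight -/
def clsN (a : ℕ) : ℕ := (tabCls >>> a) % 2

/-- `a ^ 2` -/
def sqN (a : ℕ) : ℕ := mulN a a

theorem chk_mul_lt : ((List.range 48).all fun a => (List.range 48).all fun b =>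
    Nat.blt (mulN a b) 48) = true := by decide +kernel

theorem chk_act : ((List.range 48).all fun a => (List.range 48).all fun b =>
    (List.range 8).all fun i => Nat.beq (actN (mulN a b) i) (actN a (actN b i))) = true := by
  decide +kernel

theorem chk_act_lt : ((List.range 48).all fun a => (List.range 8).all fun i =>
    Nat.blt (actN a i) 8) = true := by decide +kernel

theorem chk_inj : ((List.range 48).all fun a => (List.range 48).all fun b =>
    Nat.beq a b || !((List.range 8).all fun i => Nat.beq (actN a i) (actN b i))) = true := by
  decide +kernel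

theorem chk_one : ((List.range 48).all fun a =>
    Nat.beq (mulN 0 a) a && Nat.beq (mulN a 0) a) = true := by decide +kernel

theorem chk_inv : ((List.range 48).all fun a =>
    Nat.blt (invN a) 48 && Nat.beq (mulN (invN a) a) 0) = true := by decide +kernel

theorem chk_pr : ((List.range 48).all fun a => (List.range 48).all fun b =>
    (List.range 4).all fun i => Nat.beq (prN (mulN a b) i) (prN a (prN b i))) = true := by
  decide +kernel

theorem chk_pr_one : ((List.range 4).all fun i =>
    Nat.beq (prN 0 i) i && Nat.beq (prN 1 i) i) = true := by decide +kernel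

theorem chk_pr_inj : ((List.range 48).all fun a => (List.range 48).all fun b =>
    Nat.beq b a || Nat.beq b (mulN a 1) ||
      !((List.range 4).all fun i => Nat.beq (prN a i) (prN b i))) = true := by
  decide +kernel

theorem chk_pr_surj : ((List.range 4).all fun i => (List.range 4).all fun j =>
    (List.range 4).all fun k => (List.range 4).all fun l =>
    Nat.beq i j || Nat.beq i k || Nat.beq i l || Nat.beq j k || Nat.beq j l || Nat.beq k l ||
      (List.range 48).any fun a => Nat.beq (prN a 0) i && Nat.beq (prN a 1) j &&
        Nat.beq (prN a 2) k && Nat.beq (prN a 3) l) = true := by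
  decide +kernel

theorem chk_det : ((List.range 48).all fun a => (List.range 48).all fun b =>
    Nat.beq (detN (mulN a b)) ((detN a + detN b) % 2)) = true := by decide +kernel

theorem chk_z : ((List.range 48).all fun a => Nat.beq (mulN a 1) (mulN 1 a)) = true := by
  decide +kernel

theorem chk_ord : ((List.range 48).all fun a => Nat.beq (detN a) 0 || Nat.beq (sqN a) 0 ||
    Nat.beq (sqN (sqN a)) 1) = true := by decide +kernel

theorem chk_cent_two : ((List.range 48).all fun a => (List.range 48).all fun b =>
    Nat.beq (detN a) 0 || !(Nat.beq (sqN a) 0) || !(Nat.beq (mulN a b) (mulN b a)) ||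
      Nat.beq (detN b) 1 || Nat.beq b 0 || Nat.beq b 1) = true := by decide +kernel

theorem chk_cent_eight : ((List.range 48).all fun a => (List.range 48).all fun b =>
    !(Nat.beq (sqN (sqN a)) 1) || !(Nat.beq (mulN a b) (mulN b a)) ||
      Nat.beq (detN b) 1 || Nat.beq b 0 || Nat.beq b 1 || Nat.beq b (sqN a) ||
      Nat.beq b (mulN (sqN a) 1)) = true := by decide +kernel

theorem chk_four : ((List.range 48).all fun a =>
    (Nat.beq (sqN (sqN a)) 1 && !(Nat.beq (sqN a) 0) && !(Nat.beq (sqN a) 1)) ||
    (!(Nat.beq (sqN (sqN a)) 1) && (!(Nat.beq (sqN (sqN a)) 0) || Nat.beq (sqN a) 0 ||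
      Nat.beq (sqN a) 1))) = true := by decide +kernel

theorem chk_det_four : ((List.range 48).all fun a => !(Nat.beq (sqN (sqN a)) 1) ||
    Nat.beq (detN a) 1) = true := by decide +kernel

theorem chk_cls : ((List.range 48).all fun a => (List.range 48).all fun b =>
    Nat.beq (clsN (mulN (mulN a b) (invN a))) (clsN b)) = true := by decide +kernel

theorem chk_cls_four : ((List.range 48).all fun a =>
    (Nat.beq (clsN a) 0 || Nat.beq (sqN (sqN a)) 1) &&
    (!(Nat.beq (sqN (sqN a)) 1) || Nat.beq (clsN a + clsN (mulN a 1)) 1)) = true := by
  decide +kernel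

theorem chk_exp : ((List.range 48).all fun a => Nat.beq
    (mulN (sqN (sqN (sqN a))) (mulN (sqN (sqN (sqN a))) (sqN (sqN (sqN a))))) 0) = true := by
  decide +kernel

theorem all_range {n : ℕ} {p : ℕ → Bool} (h : (List.range n).all p = true) {a : ℕ} (ha : a < n) :
    p a = true := List.all_eq_true.1 h a (List.mem_range.2 ha)

theorem beq_eq {a b : ℕ} (h : Nat.beq a b = true) : a = b := Nat.eq_of_beq_eq_true h

theorem beq_iff {a b : ℕ} : Nat.beq a b = true ↔ a = b :=
  ⟨Nat.eq_of_beq_eq_true, fun h => by rw [h]; exact Nat.beq_refl _⟩

theorem nbeq_iff {a b : ℕ} : (!(Nat.beq a b)) = true ↔ a ≠ b := by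
  rw [Bool.not_eq_true', ← Bool.not_eq_true, beq_iff]

theorem blt_lt {a b : ℕ} (h : Nat.blt a b = true) : a < b := by
  simpa [Nat.blt_eq] using h

theorem mulN_lt {a b : ℕ} (ha : a < 48) (hb : b < 48) : mulN a b < 48 :=
  blt_lt (all_range (all_range chk_mul_lt ha) hb)

theorem invN_lt {a : ℕ} (ha : a < 48) : invN a < 48 := by
  have h := all_range chk_inv ha
  rw [Bool.and_eq_true] at h
  exact blt_lt h.1

theorem actN_lt {a i : ℕ} (ha : a < 48) (hi : i < 8) : actN a i < 8 :=
  blt_lt (all_range (all_range chk_act_lt ha) hi)

theorem prN_lt (a i : ℕ) : prN a i < 4 := Nat.mod_lt _ (by norm_num)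

theorem act_mul {a b i : ℕ} (ha : a < 48) (hb : b < 48) (hi : i < 8) :
    actN (mulN a b) i = actN a (actN b i) :=
  beq_eq (all_range (all_range (all_range chk_act ha) hb) hi)

theorem act_inj {a b : ℕ} (ha : a < 48) (hb : b < 48) (h : ∀ i < 8, actN a i = actN b i) :
    a = b := by
  have h1 := all_range (all_range chk_inj ha) hb
  rw [Bool.or_eq_true] at h1
  rcases h1 with h1 | h1
  · exact beq_eq h1
  · exfalso
    have h2 : ((List.range 8).all fun i => Nat.beq (actN a i) (actN b i)) = true := by
      rw [List.all_eq_true]
      intro i hi
      rw [h i (List.mem_range.1 hi)]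
      exact Nat.beq_refl _
    rw [h2] at h1
    exact absurd h1 (by decide)

theorem mulN_assoc {a b c : ℕ} (ha : a < 48) (hb : b < 48) (hc : c < 48) :
    mulN (mulN a b) c = mulN a (mulN b c) := by
  apply act_inj (mulN_lt (mulN_lt ha hb) hc) (mulN_lt ha (mulN_lt hb hc))
  intro i hi
  rw [act_mul (mulN_lt ha hb) hc hi, act_mul ha (mulN_lt hb hc) hi, act_mul hb hc hi,
    act_mul ha hb (actN_lt hc hi)]

/-- The group `GL(2,3)`. -/
structure GL23 where
  val : ℕ
  lt : val < 48

namespace GL23

theorem ext' {a b : GL23} (h : a.val = b.val) : a = b := by
  cases a; cases b; cases h; rfl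

instance : Mul GL23 := ⟨fun a b => ⟨mulN a.val b.val, mulN_lt a.lt b.lt⟩⟩
instance : One GL23 := ⟨⟨0, by decide⟩⟩
instance : Inv GL23 := ⟨fun a => ⟨invN a.val, invN_lt a.lt⟩⟩

theorem val_mul (a b : GL23) : (a * b).val = mulN a.val b.val := rfl
theorem val_one : (1 : GL23).val = 0 := rfl
theorem val_inv (a : GL23) : (a⁻¹).val = invN a.val := rfl

instance : Group GL23 :=
  Group.ofLeftAxioms
    (fun a b c => ext' (mulN_assoc a.lt b.lt c.lt))
    (fun a => ext' (by
      have h := all_range chk_one a.lt
      rw [Bool.and_eq_true] at h
      exact beq_eq h.1))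
    (fun a => ext' (by
      have h := all_range chk_inv a.lt
      rw [Bool.and_eq_true] at h
      exact beq_eq h.2))

instance : Finite GL23 :=
  Finite.of_injective (fun a : GL23 => (⟨a.val, a.lt⟩ : Fin 48)) (by
    intro a b h
    exact ext' (by simpa using h))

/-- `-1` -/
def zz : GL23 := ⟨1, by decide⟩

theorem val_sq (a : GL23) : (a ^ 2).val = sqN a.val := by
  rw [pow_two]; rfl

theorem val_four (a : GL23) : (a ^ 4).val = sqN (sqN a.val) := by
  rw [show (4 : ℕ) = 2 * 2 from rfl, pow_mul, val_sq, val_sq]

theorem sq_one_iff (a : GL23) : a ^ 2 = 1 ↔ sqN a.val = 0 := by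
  constructor
  · intro h
    rw [← val_sq, h]; rfl
  · intro h
    exact ext' (by rw [val_sq, h]; rfl)

theorem four_zz_iff (a : GL23) : a ^ 4 = zz ↔ sqN (sqN a.val) = 1 := by
  constructor
  · intro h
    rw [← val_four, h]; rfl
  · intro h
    exact ext' (by rw [val_four, h]; rfl)

theorem four_one_iff (a : GL23) : a ^ 4 = 1 ↔ sqN (sqN a.val) = 0 := by
  constructor
  · intro h
    rw [← val_four, h]; rfl
  · intro h
    exact ext' (by rw [val_four, h]; rfl)

theorem sq_zz_iff (a : GL23) : a ^ 2 = zz ↔ sqN a.val = 1 := by
  constructor
  · intro h
    rw [← val_sq, h]; rfl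
  · intro h
    exact ext' (by rw [val_sq, h]; rfl)

/-- the determinant -/
def dt (a : GL23) : ℤˣ := if detN a.val = 0 then 1 else -1

theorem dt_eq_one (a : GL23) : dt a = 1 ↔ detN a.val = 0 := by
  unfold dt
  split_ifs with h
  · simp [h]
  · simp only [h, iff_false]
    decide

theorem detN_cases (a : ℕ) : detN a = 0 ∨ detN a = 1 := by
  have : detN a < 2 := Nat.mod_lt _ (by norm_num)
  omega

theorem dt_mul (a b : GL23) : dt (a * b) = dt a * dt b := by
  have h : detN (mulN a.val b.val) = (detN a.val + detN b.val) % 2 :=
    beq_eq (all_range (all_range chk_det a.lt) b.lt)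
  unfold dt
  rw [val_mul, h]
  rcases detN_cases a.val with ha | ha <;> rcases detN_cases b.val with hb | hb <;>
    simp [ha, hb]

def detHom : GL23 →* ℤˣ where
  toFun := dt
  map_one' := by
    rw [dt_eq_one, val_one]
    decide +kernel
  map_mul' := dt_mul

theorem pr_mul_eq {a b i : ℕ} (ha : a < 48) (hb : b < 48) (hi : i < 4) :
    prN (mulN a b) i = prN a (prN b i) :=
  beq_eq (all_range (all_range (all_range chk_pr ha) hb) hi)

theorem pr_zero {i : ℕ} (hi : i < 4) : prN 0 i = i := by
  have h := all_range chk_pr_one hi
  rw [Bool.and_eq_true] at h
  exact beq_eq h.1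

theorem pr_one {i : ℕ} (hi : i < 4) : prN 1 i = i := by
  have h := all_range chk_pr_one hi
  rw [Bool.and_eq_true] at h
  exact beq_eq h.2

instance : MulAction GL23 (Fin 4) where
  smul a i := ⟨prN a.val i.val, prN_lt _ _⟩
  one_smul i := Fin.ext (pr_zero i.isLt)
  mul_smul a b i := Fin.ext (pr_mul_eq a.lt b.lt i.isLt)

/-- the action on the four lines -/
def prHom : GL23 →* Equiv.Perm (Fin 4) := MulAction.toPermHom GL23 (Fin 4)

theorem prHom_val (a : GL23) (i : Fin 4) : (prHom a i).val = prN a.val i.val := rfl

theorem prHom_inj (g h : GL23) (e : prHom g = prHom h) : h = g ∨ h = g * zz := by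
  have h1 := all_range (all_range chk_pr_inj g.lt) h.lt
  rw [Bool.or_eq_true, Bool.or_eq_true] at h1
  rcases h1 with (h1 | h1) | h1
  · exact Or.inl (ext' (beq_eq h1))
  · exact Or.inr (ext' (beq_eq h1))
  · exfalso
    have h2 : ((List.range 4).all fun i => Nat.beq (prN g.val i) (prN h.val i)) = true := by
      rw [List.all_eq_true]
      intro i hi
      have e1 : prHom g ⟨i, List.mem_range.1 hi⟩ = prHom h ⟨i, List.mem_range.1 hi⟩ := by rw [e]
      have e2 := congrArg Fin.val e1
      rw [prHom_val, prHom_val] at e2
      exact beq_iff.2 e2
    rw [h2] at h1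
    exact absurd h1 (by decide)

theorem prHom_zz : prHom zz = 1 := by
  ext i
  rw [prHom_val]
  exact pr_one i.isLt

theorem prHom_surj (y : Equiv.Perm (Fin 4)) : ∃ g, prHom g = y := by
  have hne : ∀ i j : Fin 4, i ≠ j → ¬ (Nat.beq (y i).val (y j).val = true) := by
    intro i j hij h
    exact hij (y.injective (Fin.ext (beq_eq h)))
  have h1 := all_range (all_range (all_range (all_range chk_pr_surj (y 0).isLt) (y 1).isLt)
    (y 2).isLt) (y 3).isLt
  simp only [Bool.or_eq_true] at h1
  have h2 : ((List.range 48).any fun a => Nat.beq (prN a 0) (y 0).val &&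
      Nat.beq (prN a 1) (y 1).val && Nat.beq (prN a 2) (y 2).val &&
      Nat.beq (prN a 3) (y 3).val) = true := by
    rcases h1 with (((((h | h) | h) | h) | h) | h) | h
    · exact absurd h (hne 0 1 (by decide))
    · exact absurd h (hne 0 2 (by decide))
    · exact absurd h (hne 0 3 (by decide))
    · exact absurd h (hne 1 2 (by decide))
    · exact absurd h (hne 1 3 (by decide))
    · exact absurd h (hne 2 3 (by decide))
    · exact h
  rw [List.any_eq_true] at h2
  obtain ⟨a, ha, h3⟩ := h2
  simp only [Bool.and_eq_true] at h3
  obtain ⟨⟨⟨e0, e1⟩, e2⟩, e3⟩ := h3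
  refine ⟨⟨a, List.mem_range.1 ha⟩, ?_⟩
  apply Equiv.ext
  intro i
  apply Fin.ext
  rw [prHom_val]
  fin_cases i
  · exact beq_eq e0
  · exact beq_eq e1
  · exact beq_eq e2
  · exact beq_eq e3

theorem prHom_eq_one (g : GL23) : prHom g = 1 ↔ g = 1 ∨ g = zz := by
  constructor
  · intro h
    have h1 : prHom 1 = prHom g := by rw [h, map_one]
    rcases prHom_inj 1 g h1 with h2 | h2
    · exact Or.inl h2
    · rw [one_mul] at h2
      exact Or.inr h2
  · rintro (h | h)
    · rw [h, map_one]
    · rw [h, prHom_zz]

theorem four_iff (g : GL23) : g ^ 4 = zz ↔ Is4 (prHom g) := by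
  unfold Is4
  rw [← map_pow, ← map_pow, Ne, prHom_eq_one, prHom_eq_one, four_zz_iff, four_one_iff,
    sq_one_iff, sq_zz_iff]
  have h := all_range chk_four g.lt
  simp only [Bool.or_eq_true, Bool.and_eq_true, beq_iff, nbeq_iff] at h
  tauto

/-- the chosen class -/
def InC (g : GL23) : Prop := clsN g.val = 1

theorem clsN_cases (a : ℕ) : clsN a = 0 ∨ clsN a = 1 := by
  have : clsN a < 2 := Nat.mod_lt _ (by norm_num)
  omega

theorem inC_conj (g h : GL23) (hh : InC h) : InC (g * h * g⁻¹) := by
  have h1 : clsN (mulN (mulN g.val h.val) (invN g.val)) = clsN h.val :=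
    beq_eq (all_range (all_range chk_cls g.lt) h.lt)
  unfold InC at hh ⊢
  rw [val_mul, val_mul, val_inv, h1, hh]

theorem inC_four (g : GL23) (hg : InC g) : g ^ 4 = zz := by
  have h := all_range chk_cls_four g.lt
  simp only [Bool.or_eq_true, Bool.and_eq_true, beq_iff, nbeq_iff] at h
  unfold InC at hg
  rw [four_zz_iff]
  rcases h.1 with h1 | h1
  · omega
  · exact h1

theorem inC_sum (g : GL23) (hg : g ^ 4 = zz) : clsN g.val + clsN (g * zz).val = 1 := by
  have h := all_range chk_cls_four g.lt
  simp only [Bool.or_eq_true, Bool.and_eq_true, beq_iff, nbeq_iff] at h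
  rw [four_zz_iff] at hg
  rcases h.2 with h1 | h1
  · exact absurd hg h1
  · exact h1

theorem inC_unique (g h : GL23) (hg : InC g) (hh : InC h) (e : prHom g = prHom h) : h = g := by
  rcases prHom_inj g h e with h1 | h1
  · exact h1
  · exfalso
    have h2 := inC_sum g (inC_four g hg)
    rw [← h1] at h2
    unfold InC at hg hh
    omega

theorem exists_inC (c : Equiv.Perm (Fin 4)) (hc : Is4 c) : ∃ g, prHom g = c ∧ InC g := by
  obtain ⟨g, hg⟩ := prHom_surj c
  have h4 : g ^ 4 = zz := (four_iff g).2 (by rw [hg]; exact hc)
  have h := inC_sum g h4
  rcases clsN_cases g.val with h1 | h1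
  · refine ⟨g * zz, ?_, ?_⟩
    · rw [map_mul, prHom_zz, mul_one, hg]
    · unfold InC
      omega
  · exact ⟨g, hg, h1⟩

open Classical in
/-- the lift of the 4-cycles -/
noncomputable def tau (c : Equiv.Perm (Fin 4)) : GL23 :=
  if h : ∃ g, prHom g = c ∧ InC g then h.choose else 1

theorem tau_spec (c : Equiv.Perm (Fin 4)) (hc : Is4 c) : prHom (tau c) = c ∧ InC (tau c) := by
  have h := exists_inC c hc
  unfold tau
  rw [dif_pos h]
  exact h.choose_spec

theorem tau_conj (g : GL23) (c : Equiv.Perm (Fin 4)) (hc : Is4 c) :
    g * tau c * g⁻¹ = tau (prHom g * c * (prHom g)⁻¹) := by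
  obtain ⟨h1, h2⟩ := tau_spec c hc
  have h3 : InC (g * tau c * g⁻¹) := inC_conj g _ h2
  have h4 : prHom (g * tau c * g⁻¹) = prHom g * c * (prHom g)⁻¹ := by
    rw [map_mul, map_mul, map_inv, h1]
  have h5 : Is4 (prHom g * c * (prHom g)⁻¹) := by
    rw [← h4]
    exact (four_iff _).1 (inC_four _ h3)
  obtain ⟨h6, h7⟩ := tau_spec _ h5
  exact inC_unique _ _ h7 h3 (by rw [h6, h4])

theorem ne_one_of_ne {g : GL23} (h : detHom g ≠ 1) : detN g.val ≠ 0 := by
  intro h1
  exact h ((dt_eq_one g).2 h1)

theorem det_zero {g : GL23} (h : detHom g = 1) : detN g.val = 0 := (dt_eq_one g).1 h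

/-- the cover -/
noncomputable def cover : Cover GL23 where
  z := zz
  det := detHom
  pr := prHom
  τ := tau
  z_ne := by
    intro h
    have := congrArg GL23.val h
    exact absurd this (by decide)
  z_comm g := ext' (beq_eq (all_range chk_z g.lt))
  z_sq := ext' (by
    show mulN 1 1 = 0
    decide +kernel)
  pr_z := prHom_zz
  det_z := (dt_eq_one zz).2 (by
    show detN 1 = 0
    decide +kernel)
  pr_inj := prHom_inj
  pr_surj := prHom_surj
  ord g hg := by
    have h := all_range chk_ord g.lt
    simp only [Bool.or_eq_true, beq_iff] at h
    rw [sq_one_iff, four_zz_iff]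
    have := ne_one_of_ne hg
    tauto
  cent_two g h hg h2 hc hh := by
    have h1 := all_range (all_range chk_cent_two g.lt) h.lt
    simp only [Bool.or_eq_true, beq_iff, nbeq_iff] at h1
    have a1 := ne_one_of_ne hg
    have a2 := (sq_one_iff g).1 h2
    have a3 : mulN g.val h.val = mulN h.val g.val := congrArg GL23.val hc
    have a4 := det_zero hh
    have a5 : detN h.val ≠ 1 := by omega
    have a6 : h.val = 0 ∨ h.val = 1 := by tauto
    rcases a6 with a6 | a6
    · exact Or.inl (ext' a6)
    · exact Or.inr (ext' a6)
  cent_eight g h h2 hc hh := by
    have h1 := all_range (all_range chk_cent_eight g.lt) h.lt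
    simp only [Bool.or_eq_true, beq_iff, nbeq_iff] at h1
    have a2 := (four_zz_iff g).1 h2
    have a3 : mulN g.val h.val = mulN h.val g.val := congrArg GL23.val hc
    have a4 := det_zero hh
    have a5 : detN h.val ≠ 1 := by omega
    have a6 : h.val = 0 ∨ h.val = 1 ∨ h.val = sqN g.val ∨ h.val = mulN (sqN g.val) 1 := by
      tauto
    rcases a6 with a6 | a6 | a6 | a6
    · exact Or.inl (ext' a6)
    · exact Or.inr (Or.inl (ext' a6))
    · exact Or.inr (Or.inr (Or.inl (ext' (by rw [val_sq, a6]))))
    · exact Or.inr (Or.inr (Or.inr (ext' (by rw [val_mul, val_sq, a6]; rfl))))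
  four := four_iff
  det_of_four g hg h := by
    have h1 := all_range chk_det_four g.lt
    simp only [Bool.or_eq_true, beq_iff, nbeq_iff] at h1
    have a2 := (four_zz_iff g).1 hg
    have a4 := det_zero h
    rcases h1 with h1 | h1
    · exact h1 a2
    · omega
  pr_τ c hc := (tau_spec c hc).1
  τ_conj := tau_conj
  exp g := by
    have h : mulN (sqN (sqN (sqN g.val))) (mulN (sqN (sqN (sqN g.val))) (sqN (sqN (sqN g.val))))
        = 0 := beq_eq (all_range chk_exp g.lt)
    have h8 : (g ^ 8).val = sqN (sqN (sqN g.val)) := by
      rw [show (8 : ℕ) = 4 * 2 from rfl, pow_mul, val_sq, val_four]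
    have e : g ^ 24 = g ^ 8 * (g ^ 8 * g ^ 8) := by
      rw [← pow_add, ← pow_add]
    rw [e]
    apply ext'
    rw [val_mul, val_mul, h8, h]
    rfl

end GL23

/-- Row A. -/
theorem exists_cover : SpecCover := ⟨GL23, inferInstance, inferInstance, ⟨GL23.cover⟩⟩

end Vale.Agent.P258.R2.H467
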